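import Vale.Agent.P181.R2.H24.Defs

/-!
P181, mod p theorem, row T: a nonzero complex solution of the integer linear system gives a nonzero
solution over `ZMod p`.
-/

set_option autoImplicit false

namespace Vale.Agent.P181.ModP

/-- Additive maps preserve the conditions. -/
theorem Sol.map {R S : Type*} [CommRing R] [CommRing S] {a b n : ℕ} {lam : Fin n → ℕ}
    {c : Lab a b n → R} (hc : Sol lam c) (f : R →+ S) : Sol lam (fun w => f (c w)) where
  pos w π := by simp only [hc.pos w π]
  row w σ := by simp only [hc.row w σ]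
  wt w hw := by simp only [hc.wt w hw, map_zero]
  shear i l hil w s hs := by
    rw [← map_sum, hc.shear i l hil w s hs, map_zero]
  ker v := by
    rw [← map_sum, hc.ker v, map_zero]

/-- Injective additive maps reflect the conditions. -/
theorem Sol.of_map {R S : Type*} [CommRing R] [CommRing S] {a b n : ℕ} {lam : Fin n → ℕ}
    {c : Lab a b n → R} (f : R →+ S) (hf : Function.Injective f)
    (hc : Sol lam (fun w => f (c w))) : Sol lam c where
  pos w π := hf (hc.pos w π)
  row w σ := hf (hc.row w σ)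
  wt w hw := hf (by rw [map_zero]; exact hc.wt w hw)
  shear i l hil w s hs := hf (by rw [map_sum, map_zero]; exact hc.shear i l hil w s hs)
  ker v := hf (by rw [map_sum, map_zero]; exact hc.ker v)

/-- Row T. -/
theorem transfer {a b n : ℕ} {lam : Fin n → ℕ} (p : ℕ) [Fact p.Prime] (c : Lab a b n → ℂ)
    (hc : Sol lam c) (h0 : c ≠ 0) : ∃ c' : Lab a b n → ZMod p, Sol lam c' ∧ c' ≠ 0 := by
  classical
  obtain ⟨w0, hw0⟩ : ∃ w, c w ≠ 0 := Function.ne_iff.mp h0
  -- a rational functional
  obtain ⟨f, hf⟩ : ∃ f : Module.Dual ℚ ℂ, f (c w0) ≠ 0 := by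
    by_contra hcon
    push Not at hcon
    exact hw0 ((Module.forall_dual_apply_eq_zero_iff ℚ (c w0)).mp hcon)
  have h1 : Sol lam (fun w => f (c w)) := hc.map f.toAddMonoidHom
  -- clear denominators
  obtain ⟨N, hN⟩ := IsLocalization.exist_integer_multiples_of_finite (nonZeroDivisors ℤ)
    (fun w : Lab a b n => f (c w))
  choose d hd using hN
  have hNQ : ((N : ℤ) : ℚ) ≠ 0 := by
    exact_mod_cast nonZeroDivisors.coe_ne_zero N
  have hd' : ∀ w, ((d w : ℤ) : ℚ) = ((N : ℤ) : ℚ) * f (c w) := by
    intro w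
    have := hd w
    simpa [Algebra.smul_def] using this
  have h2 : Sol lam d := by
    refine Sol.of_map (Int.castAddHom ℚ) Int.cast_injective ?_
    have h3 := h1.map (AddMonoidHom.mulLeft ((N : ℤ) : ℚ))
    have he : (fun w => (Int.castAddHom ℚ) (d w)) =
        fun w => (AddMonoidHom.mulLeft ((N : ℤ) : ℚ)) (f (c w)) := by
      funext w
      simpa using hd' w
    rw [he]
    exact h3
  have hdw0 : d w0 ≠ 0 := by
    intro h
    have := hd' w0
    rw [h, Int.cast_zero] at this
    exact (mul_ne_zero hNQ hf) this.symm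
  -- divide by the greatest common divisor
  obtain ⟨e, he, he1⟩ := Finset.extract_gcd d (s := (Finset.univ : Finset (Lab a b n)))
    ⟨w0, Finset.mem_univ _⟩
  have hg : (Finset.univ : Finset (Lab a b n)).gcd d ≠ 0 := by
    intro h
    exact hdw0 (Finset.gcd_eq_zero_iff.mp h w0 (Finset.mem_univ _))
  have h4 : Sol lam e := by
    refine Sol.of_map (AddMonoidHom.mulLeft ((Finset.univ : Finset (Lab a b n)).gcd d))
      (mul_right_injective₀ hg) ?_
    have he' : (fun w => (AddMonoidHom.mulLeft ((Finset.univ : Finset (Lab a b n)).gcd d)) (e w)) =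
        d := by
      funext w
      exact (he w (Finset.mem_univ _)).symm
    rw [he']
    exact h2
  refine ⟨fun w => (e w : ZMod p), h4.map (Int.castAddHom (ZMod p)), ?_⟩
  intro hz
  have hdvd : ∀ w, (p : ℤ) ∣ e w := by
    intro w
    have := congrFun hz w
    exact (ZMod.intCast_zmod_eq_zero_iff_dvd (e w) p).mp this
  have h5 : (p : ℤ) ∣ (Finset.univ : Finset (Lab a b n)).gcd e :=
    Finset.dvd_gcd fun w _ => hdvd w
  rw [he1] at h5
  have hp : (p : ℤ) = 1 ∨ (p : ℤ) = -1 := Int.isUnit_iff.mp (isUnit_of_dvd_one h5)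
  have hp1 := (Fact.out : p.Prime).one_lt
  omega

end Vale.Agent.P181.ModP
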